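import Vale.Agent.P184.Main

namespace Vale.Agent.Results.P184.Tame

open Vale.Agent.P184

universe u v

theorem result (G : Type u) [Group G] :
    (∀ g : G, Tame.{u, v} g → Vanish g) ∧
    ((∀ g : G, ¬ IsOfFinOrder g → Tame.{u, v} g) → FinTors G → Bass G) ∧
    (LinearP.{u, v} G → (∀ g : G, ¬ IsOfFinOrder g → Vanish g) ∧ (FinTors G → Bass G)) := by
  refine ⟨fun g => vanish_of_tame, fun h => bass_of fun g hg => vanish_of_tame (h g hg), ?_⟩
  rintro ⟨K, _, p, hp, hK, n, ρ, hρ⟩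
  have h : ∀ g : G, ¬ IsOfFinOrder g → Vanish g := fun g hg =>
    (phi_of_charP hp ρ fun h1 => hg (hρ.isOfFinOrder_iff.1 h1)).elim fun _ h => vanish_of_phi h
  exact ⟨h, bass_of h⟩

end Vale.Agent.Results.P184.Tame
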